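import Vale.Agent.P230.Final

/-!
# Worst-case translative covering density: `Θ_T(n) ≥ c n log n`
-/

open Filter

namespace Vale.Agent.Results.P230.NaszodiDisproof

open Vale.Agent.P230

/-- For all large `n` some convex body in `ℝⁿ` has translative covering density at least
`c n log n`; in particular no bound `θ_T(K) ≤ C n` holds for all convex bodies. -/
theorem result :
    (∃ c : ℝ, 0 < c ∧ ∀ᶠ n : ℕ in atTop, ∃ K : Set (Sp n),
      IsConvexBody K ∧ ENNReal.ofReal (c * n * Real.log n) ≤ thetaT K) ∧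
    ¬ ∃ C : ℝ, ∀ n : ℕ, 1 ≤ n → ∀ K : Set (Sp n), IsConvexBody K →
      thetaT K ≤ ENNReal.ofReal (C * n) := by
  refine ⟨lower_bound, ?_⟩
  rintro ⟨C, hC⟩
  obtain ⟨c, hc, h⟩ := lower_bound
  have hlog : ∀ᶠ n : ℕ in atTop, (|C| + 1) / c < Real.log n :=
    (Real.tendsto_log_atTop.comp tendsto_natCast_atTop_atTop).eventually_gt_atTop _
  obtain ⟨n, ⟨K, hK, hcK⟩, hn, hn1⟩ := (h.and (hlog.and (eventually_ge_atTop 1))).exists
  have h1 := hcK.trans (hC n hn1 K hK)
  have hn1r : (1 : ℝ) ≤ n := by exact_mod_cast hn1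
  rw [div_lt_iff₀ hc] at hn
  have hCabs := le_abs_self C
  have habs := abs_nonneg C
  have h2 : C * n < c * n * Real.log n := by nlinarith
  have h3 : 0 < c * n * Real.log n := by nlinarith
  exact absurd h1 (not_le.mpr ((ENNReal.ofReal_lt_ofReal_iff h3).mpr h2))

end Vale.Agent.Results.P230.NaszodiDisproof
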