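import Vale.Agent.P230.Final
import Vale.Agent.P230.Upper
import Vale.Agent.P230.Lattice

/-!
# The order of growth of the worst-case translative covering density
-/

open Filter

namespace Vale.Agent.Results.P230.WorstCaseOrder

open Vale.Agent.P230

/-- `Θ_T(n)` has order `n log n`: `c n log n ≤ Θ_T(n)` for all large `n` and
`Θ_T(n) ≤ 20 n log n` for all `n ≥ 2`.  Consequently there is no constant `C` with
`θ_T(K) ≤ C n` for all convex bodies `K` in all dimensions `n ≥ 1`.  Moreover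
`Θ_L(n) ≥ c n log n` for all large `n`. -/
theorem result :
    (∃ c : ℝ, 0 < c ∧ ∀ᶠ n : ℕ in atTop,
      ENNReal.ofReal (c * n * Real.log n) ≤ ThetaT n ∧
      ENNReal.ofReal (c * n * Real.log n) ≤ ThetaL n) ∧
    (∀ n : ℕ, 2 ≤ n → ThetaT n ≤ ENNReal.ofReal (20 * n * Real.log n)) ∧
    (¬ ∃ C : ℝ, ∀ n : ℕ, 1 ≤ n → ∀ K : Set (Sp n), IsConvexBody K →
      thetaT K ≤ ENNReal.ofReal (C * n)) := by
  obtain ⟨c, hc, h⟩ := lower_bound
  refine ⟨⟨c, hc, ?_⟩, fun n hn => ThetaT_le hn, ?_⟩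
  · filter_upwards [h] with n hn
    obtain ⟨K, hK, hcK⟩ := hn
    refine ⟨?_, ?_⟩
    · exact hcK.trans (le_iSup₂_of_le K hK le_rfl)
    · exact hcK.trans ((thetaT_le_thetaL K).trans (le_iSup₂_of_le K hK le_rfl))
  · rintro ⟨C, hC⟩
    have hlog : ∀ᶠ n : ℕ in atTop, (|C| + 1) / c < Real.log n :=
      (Real.tendsto_log_atTop.comp tendsto_natCast_atTop_atTop).eventually_gt_atTop _
    obtain ⟨n, ⟨K, hK, hcK⟩, hn, hn1⟩ := (h.and (hlog.and (eventually_ge_atTop 1))).exists
    have h1 := hcK.trans (hC n hn1 K hK)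
    have hn1r : (1 : ℝ) ≤ n := by exact_mod_cast hn1
    rw [div_lt_iff₀ hc] at hn
    have hCabs := le_abs_self C
    have habs := abs_nonneg C
    have h2 : C * n < c * n * Real.log n := by nlinarith
    have h3 : 0 < c * n * Real.log n := by nlinarith
    exact absurd h1 (not_le.mpr ((ENNReal.ofReal_lt_ofReal_iff h3).mpr h2))

end Vale.Agent.Results.P230.WorstCaseOrder
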